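import Vale.Agent.P097.H128.NZ.Defs2

/-! # P097 / program NZ, package NZ-F: the law at an end gives RAT's `LawB`.  Owner: helper992. -/

set_option linter.all false

open Complex Metric Filter Topology Set
open scoped ComplexConjugate

namespace Vale.Agent.P097.NZ

open Vale.Agent.P097.TA Vale.Agent.P097.H202 Vale.Agent.P097.H402.Rat

namespace H992

theorem Ex_eq (z : ℂ) : Ex z = dslope Complex.exp 0 z := by
  unfold Ex
  by_cases h : z = 0
  · subst h
    simp [dslope_same]
  · rw [if_neg h, dslope_of_ne _ h, slope_def_field]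
    simp

theorem Ex_diff : Differentiable ℂ Ex := by
  have h : Ex = dslope Complex.exp 0 := funext Ex_eq
  rw [h]
  have := (Complex.differentiableOn_dslope (s := Set.univ) (c := (0 : ℂ)) (f := Complex.exp)
    (by simp)).2 Complex.differentiable_exp.differentiableOn
  exact differentiableOn_univ.1 this

theorem Ex_zero : Ex 0 = 1 := by simp [Ex]

theorem Ex_mul (z : ℂ) : z * Ex z = Complex.exp z - 1 := by
  unfold Ex
  by_cases h : z = 0
  · subst h; simp
  · rw [if_neg h]; field_simp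

theorem Ex_neg (z : ℂ) : Ex (-z) = Complex.exp (-z) * Ex z := by
  by_cases h : z = 0
  · subst h; simp [Ex]
  · have h' : -z ≠ 0 := neg_ne_zero.2 h
    unfold Ex
    rw [if_neg h, if_neg h']
    have e : Complex.exp (-z) * Complex.exp z = 1 := by
      rw [← Complex.exp_add]; simp
    field_simp
    linear_combination -e

/-- the primitive of `exp (k w)` -/
theorem hasDerivAt_prim (k w : ℂ) :
    HasDerivAt (fun w => w * Ex (k * w)) (Complex.exp (k * w)) w := by
  by_cases hk : k = 0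
  · subst hk
    simp only [zero_mul, Ex_zero, mul_one, Complex.exp_zero]
    exact hasDerivAt_id w
  · have h : (fun w : ℂ => w * Ex (k * w)) = fun w => (Complex.exp (k * w) - 1) / k := by
      funext w
      rw [← Ex_mul]
      field_simp
    rw [h]
    have h1 : HasDerivAt (fun w : ℂ => k * w) (k * 1) w := (hasDerivAt_id w).const_mul k
    have h2 := (h1.cexp.sub_const 1).div_const k
    exact h2.congr_deriv (by field_simp)

theorem aB_neg (σ : ℝ) (τ : ℂ) : aB σ (-τ) = Complex.exp (-τ) * aB σ τ := by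
  unfold aB
  rw [show ((σ : ℂ) + 2) * -τ = -(((σ : ℂ) + 2) * τ) by ring,
    show ((σ : ℂ) + 1) * -τ = -(((σ : ℂ) + 1) * τ) by ring, Ex_neg, Ex_neg]
  have e : Complex.exp (-(((σ : ℂ) + 2) * τ)) =
      Complex.exp (-τ) * Complex.exp (-(((σ : ℂ) + 1) * τ)) := by
    rw [← Complex.exp_add]; congr 1; ring
  rw [e]
  have h0 := Complex.exp_ne_zero (-(((σ : ℂ) + 1) * τ))
  by_cases h : Ex (((σ : ℂ) + 1) * τ) = 0
  · rw [h]; simp
  · field_simp

theorem hasDerivAt_Ex0 : HasDerivAt Ex (1 / 2) 0 := by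
  -- from `z * Ex z = exp z - 1`, second derivative at `0`
  have hd := Ex_diff
  have h1 : HasDerivAt Ex (deriv Ex 0) 0 := (hd 0).hasDerivAt
  have hd2 : ∀ z, HasDerivAt (fun z => z * Ex z) (Ex z + z * deriv Ex z) z := by
    intro z
    exact ((hasDerivAt_id z).mul (hd z).hasDerivAt).congr_deriv (by simp)
  have e1 : ∀ z, Ex z + z * deriv Ex z = Complex.exp z := by
    intro z
    have h2 := hd2 z
    have h3 : HasDerivAt (fun z => Complex.exp z - 1) (Complex.exp z) z :=
      (Complex.hasDerivAt_exp z).sub_const 1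
    have h4 : (fun z => z * Ex z) = fun z => Complex.exp z - 1 := funext Ex_mul
    rw [h4] at h2
    exact h2.unique h3
  have hdd : Differentiable ℂ (deriv Ex) := by
    have : ContDiff ℂ 2 Ex := hd.contDiff
    have h5 := (contDiff_succ_iff_deriv (n := 1) (f := Ex) (𝕜 := ℂ)).1 (by exact_mod_cast this)
    exact h5.2.2.differentiable (by norm_num)
  have h6 : HasDerivAt (fun z => Ex z + z * deriv Ex z)
      (deriv Ex 0 + (1 * deriv Ex 0 + 0 * deriv (deriv Ex) 0)) 0 :=
    h1.add ((hasDerivAt_id (0 : ℂ)).mul (hdd 0).hasDerivAt)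
  have h7 : (fun z => Ex z + z * deriv Ex z) = Complex.exp := funext e1
  rw [h7] at h6
  have h8 := h6.unique (Complex.hasDerivAt_exp 0)
  have h9 : deriv Ex 0 = 1 / 2 := by
    rw [Complex.exp_zero] at h8
    linear_combination h8 / 2
  rw [h9] at h1
  exact h1

theorem aB_zero (σ : ℝ) : aB σ 0 = 1 := by
  simp [aB, Ex_zero]

theorem hasDerivAt_aB0 (σ : ℝ) : HasDerivAt (aB σ) (1 / 2) 0 := by
  have h : ∀ k : ℂ, HasDerivAt (fun τ : ℂ => Ex (k * τ)) (1 / 2 * k) 0 := by
    intro k
    have h1 : HasDerivAt (fun τ : ℂ => k * τ) k 0 := by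
      simpa using (hasDerivAt_id (0 : ℂ)).const_mul k
    have h2 : HasDerivAt Ex (1 / 2) (k * 0) := by rw [mul_zero]; exact hasDerivAt_Ex0
    exact h2.comp 0 h1
  have h3 := (h ((σ : ℂ) + 2)).div (h ((σ : ℂ) + 1)) (by simp [Ex_zero])
  have h4 : aB σ = fun τ : ℂ => Ex (((σ : ℂ) + 2) * τ) / Ex (((σ : ℂ) + 1) * τ) := rfl
  rw [h4]
  exact h3.congr_deriv (by simp [Ex_zero]; ring)

/-- the explicit value of the chord integral -/
theorem Kint_eq_zero (σ : ℝ) (τ y x : ℂ) (hτ : ‖Complex.exp τ - 1‖ < 1) (hτ2 : |τ.im| < Real.pi)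
    (hy : y ≠ 0)
    (hx : 1 + y * x = Complex.exp τ) (hE : Ex (((σ : ℂ) + 1) * τ) ≠ 0) (ha : 1 + y = aB σ τ) :
    Kint (fun v => (1 + y * v) ^ (σ : ℂ)) x = 0 := by
  set u : ℝ → ℂ := fun s => 1 + y * (s * x) with hu
  have hmem : ∀ s ∈ Set.uIcc (0 : ℝ) 1, u s ∈ Complex.slitPlane := by
    intro s hs
    rw [Set.uIcc_of_le zero_le_one] at hs
    apply Complex.mem_slitPlane_of_norm_lt_one
    have e : y * (s * x) = s * (Complex.exp τ - 1) := by rw [← hx]; ring
    rw [e, norm_mul, Complex.norm_real, Real.norm_of_nonneg hs.1]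
    have h0 := norm_nonneg (Complex.exp τ - 1)
    nlinarith [hs.2]
  set P : ℂ → ℝ → ℂ := fun k s => Complex.log (u s) * Ex (k * Complex.log (u s)) with hP
  have hder : ∀ k : ℂ, ∀ s ∈ Set.uIcc (0 : ℝ) 1,
      HasDerivAt (P k) (Complex.exp (k * Complex.log (u s)) * ((y * x) / u s)) s := by
    intro k s hs
    have h1 : HasDerivAt u (y * x) s := by
      have h2 : HasDerivAt (fun s : ℝ => (s : ℂ)) 1 s := Complex.ofRealCLM.hasDerivAt
      have h3 := ((h2.mul_const x).const_mul y).const_add 1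
      exact h3.congr_deriv (by simp)
    have h2 : HasDerivAt (fun s => Complex.log (u s)) ((y * x) / u s) s :=
      h1.clog_real (hmem s hs)
    exact (hasDerivAt_prim k (Complex.log (u s))).comp_of_eq s h2 rfl
  set F : ℝ → ℂ := fun s => (1 / y ^ 2) * (P ((σ : ℂ) + 2) s - (1 + y) * P ((σ : ℂ) + 1) s)
    with hF
  have hFd : ∀ s ∈ Set.uIcc (0 : ℝ) 1, HasDerivAt F
      (x * ((1 + y * ((s : ℂ) * x)) ^ (σ : ℂ) * ((s : ℂ) * x - 1))) s := by
    intro s hs
    have h1 := ((hder ((σ : ℂ) + 2) s hs).sub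
      ((hder ((σ : ℂ) + 1) s hs).const_mul (1 + y))).const_mul (1 / y ^ 2)
    have hne : u s ≠ 0 := Complex.slitPlane_ne_zero (hmem s hs)
    have e1 : Complex.exp (((σ : ℂ) + 1) * Complex.log (u s)) =
        (u s) ^ (σ : ℂ) * u s := by
      rw [add_mul, one_mul, Complex.exp_add, Complex.exp_log hne, Complex.cpow_def_of_ne_zero hne]
      congr 2; ring
    have e2 : Complex.exp (((σ : ℂ) + 2) * Complex.log (u s)) =
        (u s) ^ (σ : ℂ) * u s * u s := by
      rw [show ((σ : ℂ) + 2) * Complex.log (u s) =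
        ((σ : ℂ) + 1) * Complex.log (u s) + Complex.log (u s) by ring, Complex.exp_add, e1,
        Complex.exp_log hne]
    rw [e1, e2] at h1
    refine h1.congr_deriv ?_
    have e3 : (s : ℂ) * x - 1 = (u s - (1 + y)) / y := by
      rw [hu]; field_simp; ring
    rw [e3]
    have e4 : (1 + y * ((s : ℂ) * x)) = u s := rfl
    rw [e4]
    field_simp
  have hcont : ContinuousOn
      (fun s : ℝ => x * ((1 + y * ((s : ℂ) * x)) ^ (σ : ℂ) * ((s : ℂ) * x - 1)))
      (Set.uIcc (0 : ℝ) 1) := by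
    refine ContinuousOn.mul continuousOn_const (ContinuousOn.mul ?_ (by fun_prop))
    refine ContinuousOn.cpow (by fun_prop) continuousOn_const ?_
    intro s hs
    exact hmem s hs
  unfold Kint
  rw [intervalIntegral.integral_eq_sub_of_hasDerivAt hFd hcont.intervalIntegrable]
  have hlog : Complex.log (u 1) = τ := by
    have : u 1 = Complex.exp τ := by rw [hu]; simpa using hx
    rw [this]
    apply Complex.log_exp
    · have := abs_lt.1 hτ2; linarith [this.1]
    · have := abs_lt.1 hτ2; linarith [this.2]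
  have hu0 : u 0 = 1 := by simp [hu]
  simp only [hF, hP, hlog, hu0, Complex.log_one, zero_mul, mul_zero, sub_zero]
  rw [ha]
  unfold aB
  rw [mul_left_comm, div_mul_cancel₀ _ hE]
  ring

end H992

open H992

/-- NZ-F -/
theorem lawEB (hA : RootA) : LawEB := by
  intro σ E hE hodd ⟨c, hc, hO⟩ hlaw
  refine ⟨fun A => E (A - 1), ?_, ?_, ?_, ?_⟩
  · -- analytic
    have h1 : AnalyticAt ℂ (fun A : ℂ => A - 1) 1 := analyticAt_id.sub analyticAt_const
    exact hE.comp_of_eq h1 (by simp)
  · -- not zero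
    intro h0
    have h1 : ∀ᶠ y in 𝓝 (0 : ℂ), E y = 0 := by
      have ht : Tendsto (fun y : ℂ => y + 1) (𝓝 0) (𝓝 1) := by
        have : ContinuousAt (fun y : ℂ => y + 1) 0 := by fun_prop
        simpa [ContinuousAt] using this
      have := ht.eventually h0
      filter_upwards [this] with y hy
      simpa using hy
    -- then `c y^3 = O(y^5)`
    have h2 : (fun y : ℂ => c * y ^ 3) =O[𝓝 0] fun y : ℂ => y ^ 5 := by
      refine (hO.neg_left.congr' ?_ EventuallyEq.rfl)
      filter_upwards [h1] with y hy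
      rw [hy]; ring
    obtain ⟨C, hC, hb⟩ := h2.exists_pos
    rw [Asymptotics.IsBigOWith] at hb
    have h3 : ∀ᶠ y in 𝓝 (0 : ℂ), C * ‖y‖ ^ 2 < ‖c‖ := by
      have ht : Tendsto (fun y : ℂ => C * ‖y‖ ^ 2) (𝓝 0) (𝓝 0) := by
        have : ContinuousAt (fun y : ℂ => C * ‖y‖ ^ 2) 0 := by fun_prop
        simpa [ContinuousAt] using this
      exact ht.eventually (gt_mem_nhds (norm_pos_iff.2 hc))
    obtain ⟨ε, hε, hball⟩ := Metric.eventually_nhds_iff.1 (hb.and h3)
    have hy0 : dist ((ε / 2 : ℝ) : ℂ) 0 < ε := by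
      rw [dist_zero_right, Complex.norm_real, Real.norm_of_nonneg (by linarith)]; linarith
    obtain ⟨ha, hb2⟩ := hball hy0
    have hn : ‖((ε / 2 : ℝ) : ℂ)‖ = ε / 2 := by
      rw [Complex.norm_real, Real.norm_of_nonneg (by linarith)]
    rw [norm_mul, norm_pow, norm_pow, hn] at ha
    rw [hn] at hb2
    have hpos : 0 < (ε / 2) ^ 3 := by positivity
    nlinarith
  · -- reflection
    have ht : Tendsto (fun A : ℂ => A - 1) (𝓝 1) (𝓝 0) := by
      have : ContinuousAt (fun y : ℂ => y - 1) 1 := by fun_prop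
      simpa [ContinuousAt] using this
    filter_upwards [ht.eventually hodd] with A hA
    rw [show (2 : ℂ) - A - 1 = -(A - 1) by ring]
    exact hA
  · -- chord law
    -- root data
    have hroot := hA (fun p v => (1 + p.1 * v) ^ (σ : ℂ)) (0, 0) 1 one_ne_zero
      (by
        intro v hv
        have h1 : AnalyticAt ℂ (fun q : (ℂ × ℂ) × ℂ => 1 + q.1.1 * q.2) (((0 : ℂ), (0 : ℂ)), v) :=
          analyticAt_const.add ((analyticAt_fst.comp analyticAt_fst).mul analyticAt_snd)
        exact h1.cpow analyticAt_const (by simp))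
      (by intro v hv; simp)
    obtain ⟨-, -, hr⟩ := hroot
    have hr1 : ∀ᶠ y in 𝓝 (0 : ℂ), ∀ x ∈ ball (2 : ℂ) (1 / 4),
        Kint (fun v => (1 + y * v) ^ (σ : ℂ)) x = 0 →
          x = root (fun v => (1 + y * v) ^ (σ : ℂ)) := by
      have ht : Tendsto (fun y : ℂ => (y, (0 : ℂ))) (𝓝 0) (𝓝 (0, 0)) := by
        have : ContinuousAt (fun y : ℂ => (y, (0 : ℂ))) 0 := by fun_prop
        simpa [ContinuousAt] using this
      filter_upwards [ht.eventually hr] with y hy
      exact hy.2.2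
    have hE0 : E 0 = 0 := by
      have := hodd.self_of_nhds
      rw [neg_zero] at this
      linear_combination this / 2
    -- `y = aB σ τ - 1 → 0`
    have hder := hasDerivAt_aB0 σ
    have hcont : Tendsto (fun τ : ℂ => aB σ τ - 1) (𝓝 0) (𝓝 0) := by
      have := hder.continuousAt.sub_const 1
      simpa [ContinuousAt, aB_zero] using this
    have hcontn : Tendsto (fun τ : ℂ => aB σ (-τ) - 1) (𝓝 0) (𝓝 0) := by
      have h1 : Tendsto (fun τ : ℂ => -τ) (𝓝 0) (𝓝 0) := by
        simpa using (continuous_neg (G := ℂ)).tendsto 0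
      exact hcont.comp h1
    -- `x = (exp τ - 1) / y → 2`
    have hs1 : Tendsto (slope (aB σ) 0) (𝓝[≠] 0) (𝓝 (1 / 2)) := hasDerivAt_iff_tendsto_slope.1 hder
    have hs2 : Tendsto (slope Complex.exp 0) (𝓝[≠] 0) (𝓝 1) := by
      have := hasDerivAt_iff_tendsto_slope.1 (Complex.hasDerivAt_exp 0)
      simpa using this
    have hs3 : Tendsto (fun τ : ℂ => (Complex.exp τ - 1) / (aB σ τ - 1)) (𝓝[≠] 0) (𝓝 2) := by
      have h1 := hs2.div hs1 (by norm_num)
      have h2 : (1 : ℂ) / (1 / 2) = 2 := by norm_num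
      rw [h2] at h1
      refine h1.congr' ?_
      filter_upwards [self_mem_nhdsWithin] with τ hτ
      have hτ' : τ ≠ 0 := hτ
      simp only [Pi.div_apply, slope_def_field, aB_zero, Complex.exp_zero, sub_zero]
      field_simp
    have hne : ∀ᶠ τ in 𝓝[≠] (0 : ℂ), aB σ τ - 1 ≠ 0 := by
      have h1 : ∀ᶠ τ in 𝓝[≠] (0 : ℂ), slope (aB σ) 0 τ ≠ 0 :=
        hs1.eventually_ne (by norm_num)
      filter_upwards [h1, self_mem_nhdsWithin] with τ h2 hτ h3
      apply h2
      rw [slope_def_field, aB_zero, h3, zero_div]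
    have hball : ∀ᶠ τ in 𝓝[≠] (0 : ℂ),
        (Complex.exp τ - 1) / (aB σ τ - 1) ∈ ball (2 : ℂ) (1 / 4) :=
      hs3.eventually (ball_mem_nhds _ (by norm_num))
    have hexp : ∀ᶠ τ in 𝓝 (0 : ℂ), ‖Complex.exp τ - 1‖ < 1 := by
      have : ContinuousAt (fun τ : ℂ => ‖Complex.exp τ - 1‖) 0 := by fun_prop
      have ht : Tendsto (fun τ : ℂ => ‖Complex.exp τ - 1‖) (𝓝 0) (𝓝 0) := by
        simpa [ContinuousAt] using this
      exact ht.eventually (gt_mem_nhds one_pos)
    have him : ∀ᶠ τ in 𝓝 (0 : ℂ), |τ.im| < Real.pi := by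
      have : ContinuousAt (fun τ : ℂ => |τ.im|) 0 := by fun_prop
      have ht : Tendsto (fun τ : ℂ => |τ.im|) (𝓝 0) (𝓝 0) := by
        simpa [ContinuousAt] using this
      exact ht.eventually (gt_mem_nhds Real.pi_pos)
    have hEx : ∀ᶠ τ in 𝓝 (0 : ℂ), Ex (((σ : ℂ) + 1) * τ) ≠ 0 := by
      have h1 : ContinuousAt (fun τ : ℂ => Ex (((σ : ℂ) + 1) * τ)) 0 := by
        apply Continuous.continuousAt
        exact Ex_diff.continuous.comp (by fun_prop)
      have h2 : Tendsto (fun τ : ℂ => Ex (((σ : ℂ) + 1) * τ)) (𝓝 0) (𝓝 1) := by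
        simpa [ContinuousAt, Ex_zero] using h1
      exact h2.eventually_ne one_ne_zero
    have hmain : ∀ᶠ τ in 𝓝[≠] (0 : ℂ),
        E (aB σ τ - 1) = -(Complex.exp (((σ : ℂ) + 3) * τ) * E (aB σ (-τ) - 1)) := by
      filter_upwards [hne, hball, nhdsWithin_le_nhds hexp, nhdsWithin_le_nhds him,
        nhdsWithin_le_nhds hEx, nhdsWithin_le_nhds (hcont.eventually hr1),
        nhdsWithin_le_nhds (hcont.eventually hlaw), nhdsWithin_le_nhds (hcontn.eventually hodd)]
        with τ h1 h2 h3 h4 h5 h6 h7 h8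
      set y := aB σ τ - 1 with hy
      set x := (Complex.exp τ - 1) / y with hx
      have hyx : 1 + y * x = Complex.exp τ := by rw [hx]; field_simp; ring
      have hK := Kint_eq_zero σ τ y x h3 h4 h1 hyx h5 (by rw [hy]; ring)
      have hxr := h6 x h2 hK
      rw [← hxr, hyx] at h7
      have e1 : y * (x - 1) / Complex.exp τ = -(aB σ (-τ) - 1) := by
        rw [aB_neg, Complex.exp_neg]
        have h0 := Complex.exp_ne_zero τ
        have h9 : aB σ τ = 1 + y := by rw [hy]; ring
        rw [h9]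
        field_simp
        linear_combination hyx
      rw [e1, h8] at h7
      have e2 : (Complex.exp τ) ^ ((σ : ℂ) + 3) = Complex.exp (((σ : ℂ) + 3) * τ) := by
        rw [Complex.cpow_def_of_ne_zero (Complex.exp_ne_zero τ)]
        rw [Complex.log_exp (by have := abs_lt.1 h4; linarith [this.1])
          (by have := abs_lt.1 h4; linarith [this.2])]
        congr 1; ring
      rw [e2] at h7
      rw [← h7]; ring
    rw [eventually_nhdsWithin_iff] at hmain
    filter_upwards [hmain] with τ h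
    by_cases h0 : τ = 0
    · subst h0
      simp [aB_zero, hE0]
    · exact h h0

end Vale.Agent.P097.NZ
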